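import Vale.Agent.P181.R2.H207.KDefs

set_option autoImplicit false

/-! Row K9: smoothness of the tilted partition function. -/

namespace Vale.Agent.P181.KT.H760

open Finset Vale.Agent.P181.KT

lemma ZZ_pos {m : ℕ} (hm : 1 ≤ m) (c : ℕ) (η : Fin m → ℝ) : 0 < ZZ m c η := by
  unfold ZZ
  refine Finset.sum_pos (fun u _ => Real.exp_pos _) ?_
  have : NeZero m := ⟨by omega⟩
  refine ⟨Pi.single (0 : Fin m) c, ?_⟩
  unfold Mn
  rw [Finset.mem_piAntidiag]
  refine ⟨?_, fun i _ => Finset.mem_univ i⟩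
  rw [Finset.sum_pi_single']
  simp

/-- the mean tilt minimises -/
lemma R_ge {m c : ℕ} {η x : Fin m → ℝ} (ζ : Fin m → ℝ) (hx : Mean m c η x) :
    ZZ m c η ≤ ZZ m c (η + ζ) * Real.exp (-∑ i, ζ i * x i) := by
  have h1 : ZZ m c (η + ζ) * Real.exp (-∑ i, ζ i * x i) =
      ∑ u ∈ Mn m c, Real.exp (∑ i, η i * (u i : ℝ)) *
        Real.exp (∑ i, ζ i * ((u i : ℝ) - x i)) := by
    unfold ZZ
    rw [Finset.sum_mul]
    refine Finset.sum_congr rfl fun u _ => ?_
    rw [← Real.exp_add, ← Real.exp_add]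
    congr 1
    simp only [Pi.add_apply]
    rw [← Finset.sum_neg_distrib, ← Finset.sum_add_distrib, ← Finset.sum_add_distrib]
    exact Finset.sum_congr rfl fun i _ => by ring
  have h2 : ∑ u ∈ Mn m c, Real.exp (∑ i, η i * (u i : ℝ)) *
      (1 + ∑ i, ζ i * ((u i : ℝ) - x i)) = ZZ m c η := by
    have h3 : ∑ u ∈ Mn m c, Real.exp (∑ i, η i * (u i : ℝ)) *
        ∑ i, ζ i * ((u i : ℝ) - x i) = 0 := by
      calc ∑ u ∈ Mn m c, Real.exp (∑ i, η i * (u i : ℝ)) * ∑ i, ζ i * ((u i : ℝ) - x i)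
          = ∑ u ∈ Mn m c, ∑ i, ζ i * (((u i : ℝ) * Real.exp (∑ k, η k * (u k : ℝ))) -
              x i * Real.exp (∑ k, η k * (u k : ℝ))) := by
            refine Finset.sum_congr rfl fun u _ => ?_
            rw [Finset.mul_sum]
            exact Finset.sum_congr rfl fun i _ => by ring
        _ = ∑ i, ∑ u ∈ Mn m c, ζ i * (((u i : ℝ) * Real.exp (∑ k, η k * (u k : ℝ))) -
              x i * Real.exp (∑ k, η k * (u k : ℝ))) := Finset.sum_comm
        _ = ∑ i : Fin m, (0 : ℝ) := by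
            refine Finset.sum_congr rfl fun i _ => ?_
            rw [← Finset.mul_sum, Finset.sum_sub_distrib, hx i, ← Finset.mul_sum]
            unfold ZZ
            ring
        _ = 0 := by simp
    simp only [mul_add, mul_one, Finset.sum_add_distrib]
    rw [h3, add_zero]
    rfl
  rw [h1, ← h2]
  refine Finset.sum_le_sum fun u _ => ?_
  refine mul_le_mul_of_nonneg_left ?_ (Real.exp_pos _).le
  have := Real.add_one_le_exp (∑ i, ζ i * ((u i : ℝ) - x i))
  linarith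

lemma exp_half_le {y : ℝ} (h0 : 0 ≤ y) (h1 : y ≤ 1) : Real.exp (y / 2) ≤ 1 + y := by
  have h2 := Real.exp_bound_div_one_sub_of_interval (x := y / 2) (by linarith) (by linarith)
  refine h2.trans ?_
  rw [div_le_iff₀ (by linarith)]
  nlinarith

/-- the final comparison -/
lemma conclude {b : ℕ} {Z P β S : ℝ} {C : ℕ} (hZ : 0 < Z) (h : Z * Real.exp β ≤ P)
    (hS : S ≤ b * β + C) : Z ^ b ≤ Real.exp C * P ^ b * Real.exp (-S) := by
  have h1 : (Z * Real.exp β) ^ b ≤ P ^ b := pow_le_pow_left₀ (by positivity) h b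
  have h2 : (Z * Real.exp β) ^ b = Z ^ b * Real.exp (b * β) := by
    rw [mul_pow, ← Real.exp_nat_mul]
  calc Z ^ b = Z ^ b * 1 := (mul_one _).symm
    _ ≤ Z ^ b * Real.exp (C + b * β - S) := by
        refine mul_le_mul_of_nonneg_left (Real.one_le_exp (by linarith)) (by positivity)
    _ = Real.exp C * (Z ^ b * Real.exp (b * β)) * Real.exp (-S) := by
        rw [sub_eq_add_neg, Real.exp_add, Real.exp_add]
        ring
    _ ≤ Real.exp C * P ^ b * Real.exp (-S) := by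
        rw [← h2]
        gcongr

/-- K9 (smoothness; from K7 and K8). -/
theorem k9
    (h7 : ∀ {m c : ℕ} {η x ζ : Fin m → ℝ} {κ T : ℝ} (i j : Fin m), 0 < κ → 0 ≤ T → 1 ≤ c →
      Mean m c η x → ∑ i, x i = c → (∀ i, 0 ≤ x i) → κ * c ≤ |x i - x j| →
      |c * (η i - η j)| ≤ T → (∀ p q, c * (ζ p - ζ q) ≤ 1) →
      (1 + Real.exp (-T) * κ ^ 2 / 16 * (c * (ζ i - ζ j)) ^ 2) * ZZ m c η ≤
        ZZ m c (η + ζ) * Real.exp (-∑ i, ζ i * x i))
    (h8 : ∀ {m c : ℕ} (η ζ x : Fin m → ℝ) {r : ℝ}, 1 ≤ r → 0 < ZZ m c η →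
      (ZZ m c (η + ζ) * Real.exp (-∑ i, ζ i * x i) / ZZ m c η) ^ r ≤
        ZZ m c (η + r • ζ) * Real.exp (-(r * ∑ i, ζ i * x i)) / ZZ m c η) :
    ∀ (m : ℕ) {κ T : ℝ}, 0 < κ → 0 ≤ T → ∃ C b0 : ℕ, ∀ (c b : ℕ)
      (η η' x Δ : Fin m → ℝ), 1 ≤ c → b0 ≤ b → Mean m c η x → ∑ i, x i = c → (∀ i, 0 ≤ x i) →
      (∀ i j, i ≠ j → κ * c ≤ |x i - x j|) → (∀ i j, c * (η i - η j) ≤ T) → ∑ i, Δ i = 0 →
      (∀ i, Δ i ^ 2 ≤ 2 * m * b * (c : ℝ) ^ 2) →
      ZZ m c η ^ b * Real.exp (-∑ i, η i * (b * x i + Δ i)) ≤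
        Real.exp C * (ZZ m c η' ^ b * Real.exp (-∑ i, η' i * (b * x i + Δ i))) := by
  intro m κ T hκ hT
  set g : ℝ := Real.exp (-T) * κ ^ 2 / 16 with hg
  have hg0 : 0 < g := by positivity
  refine ⟨⌈(m : ℝ) ^ 3 / g⌉₊, ⌈8 * (m : ℝ) ^ 3 / g ^ 2⌉₊, ?_⟩
  intro c b η η' x Δ hc hb hmean hsum hx0 hsep hT2 hΔ0 hΔ
  have hC : (m : ℝ) ^ 3 / g ≤ (⌈(m : ℝ) ^ 3 / g⌉₊ : ℝ) := Nat.le_ceil _
  have hb' : 8 * (m : ℝ) ^ 3 / g ^ 2 ≤ b := (Nat.le_ceil _).trans (by exact_mod_cast hb)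
  set C := ⌈(m : ℝ) ^ 3 / g⌉₊ with hCdef
  have hc0 : (0 : ℝ) < c := by exact_mod_cast hc
  -- `m ≥ 1`
  have hm : 1 ≤ m := by
    rcases Nat.eq_zero_or_pos m with rfl | h
    · simp at hsum
      linarith
    · exact h
  have : NeZero m := ⟨by omega⟩
  have hm0 : (0 : ℝ) < m := by exact_mod_cast hm
  have hb0 : (0 : ℝ) < b := lt_of_lt_of_le (by positivity) hb'
  obtain ⟨ζ, rfl⟩ : ∃ ζ, η' = η + ζ := ⟨η' - η, by simp⟩
  have hZ := ZZ_pos hm c η
  -- the reduction
  set P := ZZ m c (η + ζ) * Real.exp (-∑ i, ζ i * x i) with hP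
  set S := ∑ i, ζ i * Δ i with hS
  have key : ∀ β : ℝ, ZZ m c η * Real.exp β ≤ P → S ≤ b * β + C →
      ZZ m c η ^ b * Real.exp (-∑ i, η i * (b * x i + Δ i)) ≤
        Real.exp C * (ZZ m c (η + ζ) ^ b * Real.exp (-∑ i, (η + ζ) i * (b * x i + Δ i))) := by
    intro β h1 h2
    have h3 := conclude (b := b) hZ h1 h2
    have h4 : ZZ m c (η + ζ) ^ b * Real.exp (-∑ i, (η + ζ) i * (b * x i + Δ i)) =
        P ^ b * Real.exp (-S) * Real.exp (-∑ i, η i * (b * x i + Δ i)) := by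
      have e : ∑ i, (η + ζ) i * (b * x i + Δ i) =
          ∑ i, η i * (b * x i + Δ i) + b * ∑ i, ζ i * x i + ∑ i, ζ i * Δ i := by
        rw [Finset.mul_sum, ← Finset.sum_add_distrib, ← Finset.sum_add_distrib]
        refine Finset.sum_congr rfl fun i _ => ?_
        rw [Pi.add_apply]
        ring
      have e' : -∑ i, (η + ζ) i * (b * x i + Δ i) = b * (-∑ i, ζ i * x i) +
          (-S + -∑ i, η i * (b * x i + Δ i)) := by
        rw [e, hS]
        ring
      rw [hP, mul_pow, ← Real.exp_nat_mul, e', Real.exp_add, Real.exp_add]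
      ring
    rw [h4]
    calc ZZ m c η ^ b * Real.exp (-∑ i, η i * (b * x i + Δ i))
        ≤ (Real.exp C * P ^ b * Real.exp (-S)) * Real.exp (-∑ i, η i * (b * x i + Δ i)) :=
          mul_le_mul_of_nonneg_right h3 (Real.exp_pos _).le
      _ = _ := by ring
  -- maximum and minimum of `ζ`
  obtain ⟨i, hi⟩ := Finite.exists_max ζ
  obtain ⟨j, hj⟩ := Finite.exists_min ζ
  set ω : ℝ := c * (ζ i - ζ j) with hω
  have hω0 : 0 ≤ ω := mul_nonneg hc0.le (by linarith [hi j])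
  set s : ℝ := Real.sqrt (2 * m * b) with hs
  have hs0 : 0 ≤ s := Real.sqrt_nonneg _
  have hs2 : s ^ 2 = 2 * m * b := Real.sq_sqrt (by positivity)
  have hSb : S ≤ m * ω * s := by
    have h1 : S = ∑ k, (ζ k - ζ j) * Δ k := by
      simp only [sub_mul, Finset.sum_sub_distrib, ← Finset.mul_sum, hΔ0, mul_zero, sub_zero]
      rfl
    rw [h1]
    calc ∑ k, (ζ k - ζ j) * Δ k ≤ ∑ _k : Fin m, ω * s := by
          refine Finset.sum_le_sum fun k _ => ?_
          have h2 : |Δ k| ≤ s * c := by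
            refine abs_le_of_sq_le_sq ?_ (by positivity)
            rw [mul_pow, hs2]
            exact hΔ k
          have h3 : Δ k ≤ s * c := (le_abs_self _).trans h2
          have h4 : 0 ≤ ζ k - ζ j := by linarith [hj k]
          have h5 : ζ k - ζ j ≤ ζ i - ζ j := by linarith [hi k]
          calc (ζ k - ζ j) * Δ k ≤ (ζ k - ζ j) * (s * c) := mul_le_mul_of_nonneg_left h3 h4
            _ ≤ (ζ i - ζ j) * (s * c) := mul_le_mul_of_nonneg_right h5 (by positivity)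
            _ = ω * s := by rw [hω]; ring
      _ = m * ω * s := by
          rw [Finset.sum_const, Finset.card_univ, Fintype.card_fin, nsmul_eq_mul]
          ring
  rcases hω0.eq_or_lt with h0 | hωpos
  · -- `ω = 0`
    refine key 0 ?_ ?_
    · rw [Real.exp_zero, mul_one]
      exact R_ge ζ hmean
    · rw [← h0] at hSb
      have : (0 : ℝ) ≤ C := Nat.cast_nonneg _
      linarith
  have hij : i ≠ j := by
    rintro rfl
    simp [hω] at hωpos
  have habs : |c * (η i - η j)| ≤ T := by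
    rw [abs_le]
    refine ⟨?_, hT2 i j⟩
    have := hT2 j i
    linarith
  have hg1 : g ≤ 1 := by
    have h1 := hsep i j hij
    have h2 : |x i - x j| ≤ c := by
      rw [abs_le]
      have h3 : x i ≤ c := by
        rw [← hsum]; exact Finset.single_le_sum (fun k _ => hx0 k) (Finset.mem_univ i)
      have h4 : x j ≤ c := by
        rw [← hsum]; exact Finset.single_le_sum (fun k _ => hx0 k) (Finset.mem_univ j)
      constructor <;> linarith [hx0 i, hx0 j]
    have h5 : κ ≤ 1 := by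
      by_contra h
      have : 1 * (c : ℝ) < κ * c := mul_lt_mul_of_pos_right (not_le.1 h) hc0
      linarith
    have h6 : Real.exp (-T) ≤ 1 := Real.exp_le_one_iff.2 (by linarith)
    have h7 : κ ^ 2 ≤ 1 := pow_le_one₀ hκ.le h5
    calc g ≤ 1 * 1 / 16 := by rw [hg]; gcongr
      _ ≤ 1 := by norm_num
  have hm3 : (m : ℝ) ^ 3 / g ≤ C := hC
  rcases le_or_gt ω 1 with h1 | h1
  · -- `ω ≤ 1`
    have h2 := h7 (ζ := ζ) i j hκ hT hc hmean hsum hx0 (hsep i j hij) habs (fun p q => by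
      refine le_trans ?_ h1
      rw [hω]
      exact mul_le_mul_of_nonneg_left (by linarith [hi p, hj q]) hc0.le)
    refine key (g * ω ^ 2 / 2) ?_ ?_
    · have h3 : ω ^ 2 ≤ 1 := pow_le_one₀ hω0 h1
      have h4 := exp_half_le (y := g * ω ^ 2) (by positivity) (by nlinarith [sq_nonneg ω])
      calc ZZ m c η * Real.exp (g * ω ^ 2 / 2) ≤ ZZ m c η * (1 + g * ω ^ 2) := by gcongr
        _ = (1 + g * ω ^ 2) * ZZ m c η := by ring
        _ ≤ P := h2
    · refine hSb.trans ?_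
      -- `m ω s ≤ b g ω² / 2 + m³ / g`
      have h3 : m * ω * s ≤ b * (g * ω ^ 2 / 2) + (m : ℝ) ^ 3 / g := by
        have h4 : (m : ℝ) ^ 3 / g * g = (m : ℝ) ^ 3 := by field_simp
        have h5 : 0 ≤ (s * g * ω - 2 * m ^ 2) ^ 2 := sq_nonneg _
        -- multiply by `4 m g`
        have h6 : 0 ≤ (b * (g * ω ^ 2 / 2) + (m : ℝ) ^ 3 / g - m * ω * s) * (4 * m * g) := by
          have h7 : (b * (g * ω ^ 2 / 2) + (m : ℝ) ^ 3 / g - m * ω * s) * (4 * m * g) =
              (2 * m * b) * g ^ 2 * ω ^ 2 + 4 * m * ((m : ℝ) ^ 3 / g * g) -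
                4 * m ^ 2 * g * ω * s := by ring
          rw [h7, h4, ← hs2]
          nlinarith
        have h8 : (0 : ℝ) < 4 * m * g := by positivity
        have := nonneg_of_mul_nonneg_left h6 h8
        linarith
      linarith
  · -- `ω > 1`
    set ζ1 : Fin m → ℝ := ω⁻¹ • ζ with hζ1
    have e1 : ω • ζ1 = ζ := by rw [hζ1, smul_smul, mul_inv_cancel₀ hωpos.ne', one_smul]
    have eζ : ∀ k, ζ1 k = ω⁻¹ * ζ k := fun k => rfl
    have e2 : c * (ζ1 i - ζ1 j) = 1 := by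
      rw [eζ, eζ]
      have : c * (ω⁻¹ * ζ i - ω⁻¹ * ζ j) = ω⁻¹ * ω := by
        rw [hω]
        ring
      rw [this, inv_mul_cancel₀ hωpos.ne']
    have h2 := h7 (ζ := ζ1) i j hκ hT hc hmean hsum hx0 (hsep i j hij) habs (fun p q => by
      rw [← e2]
      refine mul_le_mul_of_nonneg_left ?_ hc0.le
      rw [eζ, eζ, eζ, eζ]
      have h3 : 0 < ω⁻¹ := inv_pos.2 hωpos
      have h4 := mul_le_mul_of_nonneg_left (hi p) h3.le
      have h5 := mul_le_mul_of_nonneg_left (hj q) h3.le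
      linarith)
    rw [e2, one_pow, mul_one] at h2
    have h3 := h8 η ζ1 x (r := ω) h1.le hZ
    rw [e1] at h3
    have e3 : ω * ∑ i, ζ1 i * x i = ∑ i, ζ i * x i := by
      rw [Finset.mul_sum]
      refine Finset.sum_congr rfl fun k _ => ?_
      rw [eζ, ← mul_assoc, ← mul_assoc, mul_inv_cancel₀ hωpos.ne', one_mul]
    rw [e3] at h3
    refine key (ω * (g / 2)) ?_ ?_
    · have h4 : Real.exp (g / 2) ≤ ZZ m c (η + ζ1) * Real.exp (-∑ i, ζ1 i * x i) / ZZ m c η := by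
        rw [le_div_iff₀ hZ]
        calc Real.exp (g / 2) * ZZ m c η ≤ (1 + g) * ZZ m c η := by
              gcongr
              exact exp_half_le hg0.le hg1
          _ ≤ _ := h2
      have h5 : Real.exp (ω * (g / 2)) ≤ P / ZZ m c η := by
        refine le_trans ?_ h3
        calc Real.exp (ω * (g / 2)) = Real.exp (g / 2) ^ ω := by
              rw [← Real.exp_mul, mul_comm]
          _ ≤ _ := Real.rpow_le_rpow (Real.exp_pos _).le h4 hω0
      rw [le_div_iff₀ hZ] at h5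
      linarith
    · refine hSb.trans ?_
      -- `m ω s ≤ b ω g / 2`
      have h4 : m * s ≤ b * g / 2 := by
        -- squares: `4 m² s² = 8 m³ b ≤ b² g²`
        have h5 : 8 * (m : ℝ) ^ 3 ≤ b * g ^ 2 := by
          rwa [div_le_iff₀ (by positivity)] at hb'
        have h6 : (2 * (m * s)) ^ 2 ≤ (b * g) ^ 2 := by
          calc (2 * (m * s)) ^ 2 = 4 * m ^ 2 * s ^ 2 := by ring
            _ = 8 * (m : ℝ) ^ 3 * b := by rw [hs2]; ring
            _ ≤ (b * g ^ 2) * b := mul_le_mul_of_nonneg_right h5 hb0.le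
            _ = (b * g) ^ 2 := by ring
        have h7 := abs_le_of_sq_le_sq h6 (by positivity)
        have h8 := (le_abs_self _).trans h7
        linarith
      have h5 : (0 : ℝ) ≤ C := Nat.cast_nonneg _
      calc m * ω * s = ω * (m * s) := by ring
        _ ≤ ω * (b * g / 2) := mul_le_mul_of_nonneg_left h4 hω0
        _ = b * (ω * (g / 2)) := by ring
        _ ≤ b * (ω * (g / 2)) + C := by linarith

end Vale.Agent.P181.KT.H760
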